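import Vale.Agent.P088.TM.H275BC
import Vale.Agent.P088.R2.H238.DM.Spec

/-!
# P088, SOLV: row CH, the sequence in a chart
-/

open Bundle Manifold MeasureTheory Set Filter Topology
open scoped ContDiff

noncomputable section

namespace Vale.Agent.P088.DM.H747

open Vale.Agent.P088 Vale.Agent.P088.EYM Vale.Agent.P088.TM

universe u

variable {n : ℕ} [NeZero n]

theorem isOpen_Bo (z : E n) (r : ℝ) : IsOpen (Bo z r) := by
  have h1 : IsOpen {x : E n | ∀ i, |x i - z i| < r} := by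
    have : {x : E n | ∀ i, |x i - z i| < r} = ⋂ i, {x : E n | |x i - z i| < r} := by
      ext x; simp
    rw [this]
    exact isOpen_iInter_of_finite fun i => isOpen_lt (by fun_prop) continuous_const
  have h2 : IsOpen {x : E n | 0 < x 0} := isOpen_lt continuous_const (by fun_prop)
  exact h1.inter h2

theorem Bo_sub_Bx (z : E n) (r : ℝ) : Bo z r ⊆ Bx z r := fun _ hx => ⟨hx.1, hx.2.le⟩

theorem Bo_sub_Hs (z : E n) (r : ℝ) : Bo z r ⊆ Hs n := fun _ hx => hx.2.le

theorem relOpen_Bo (z : E n) (r : ℝ) : RelOpen (Bo z r) :=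
  ⟨Bo z r, isOpen_Bo z r, (inter_eq_left.2 (Bo_sub_Hs z r)).symm⟩

theorem bdd_Bx (z : E n) (r : ℝ) : Bornology.IsBounded (Bx z r) := by
  refine (Metric.isBounded_closedBall (x := z) (r := √(n * r ^ 2))).subset fun x hx => ?_
  rw [Metric.mem_closedBall, EuclideanSpace.dist_eq]
  refine Real.sqrt_le_sqrt ?_
  have h : ∀ i, dist (x i) (z i) ^ 2 ≤ r ^ 2 := fun i => by
    have h1 := hx.1 i
    rw [Real.dist_eq]
    exact pow_le_pow_left₀ (abs_nonneg _) h1.le 2
  refine (Finset.sum_le_sum fun i _ => h i).trans ?_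
  simp

theorem compact_Bx (z : E n) (r : ℝ) : IsCompact (closure (Bx z r)) :=
  (bdd_Bx z r).isCompact_closure

theorem rowCH : RowCH.{u} := by
  intro n N _ M _ _ _ _ _ _ _ P u hu hcE hcL hlim p z r hB
  have hBo : Bo z r ⊆ closure (Bx z r) := (Bo_sub_Bx z r).trans subset_closure
  have hC := compact_Bx z r
  refine ⟨fun k => ?_, ?_, fun ψ hψ => ?_⟩
  · exact (((cRungeB_h1_cont fLoc p (hu k)).mono hB).integrableOn_compact hC).mono_set hBo
  · exact cRungeB_cauchy (P := P) fInt fLoc fEn hu hcE hcL p (relOpen_Bo z r) hBo hC hB subset_rfl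
  · obtain ⟨hψ1, hψ2, hψ3⟩ := hψ
    have hK' : IsCompact (tsupport ψ) := hψ2
    obtain ⟨φ, hφ, hφD, hφ0, hφs⟩ := fExt n N M p ψ (Bo z r) (tsupport ψ) (relOpen_Bo z r)
      (hBo.trans hB) hψ1.contDiffOn hK' hψ3 fun y _ hy => image_eq_zero_of_notMem_tsupport hy
    have hb : ∀ x ∈ (𝓡∂ n).boundary M, φ x = 0 := by
      intro x hx
      refine hφ0 x ?_
      rintro ⟨y, hy, rfl⟩
      have hyB := hψ3 hy
      have hyt : y ∈ tg n p := (hBo.trans hB) hyB
      have h1 := ((fLoc n N M).2.2.1 p ((xc n p).symm y) ((xc n p).map_target hyt)).1 hx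
      rw [(xc n p).right_inv hyt] at h1
      exact absurd h1 (ne_of_gt hyB.2)
    refine (hlim φ hφ hb).congr fun k => ?_
    rw [(fEn n N M P p (Bo z r) (relOpen_Bo z r) (hBo.trans hB)).1 (u k) φ (hu k) hφ
      (Or.inr (hφs.trans (image_mono hψ3)))]
    exact cRungeB_En_congr _ (relOpen_Bo z r) _ fun y hy => hφD y hy

end Vale.Agent.P088.DM.H747
end
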